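import Vale.Agent.P121.Main

open MeasureTheory Vale.Agent.P121
open scoped ContDiff

theorem Vale.Agent.Results.P121.NoMonge.result :
    ∃ μ : Measure E3, IsProbabilityMeasure μ ∧ μ ≪ volume ∧
      (∃ ρ : E3 → ℝ, ContDiff ℝ ∞ ρ ∧ HasCompactSupport ρ ∧ (∀ x, 0 ≤ ρ x) ∧
        μ = volume.withDensity (fun x => ENNReal.ofReal (ρ x))) ∧
      kantorovichValue μ < ⊤ ∧
      ¬ ∃ T₂ T₃ : E3 → E3, IsOptimalMongePair μ T₂ T₃ := by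
  obtain ⟨ρ, h1, h2, h3, h4, h5, h6⟩ := Vale.Agent.P121.main
  exact ⟨_, h4, withDensity_absolutelyContinuous _ _, ⟨ρ, h1, h2, h3, rfl⟩, h5,
    fun ⟨T₂, T₃, h⟩ => h6 T₂ T₃ h⟩
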